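import Vale.Agent.H23.MUDef
import Vale.Agent.H23.MSummand
import Vale.Agent.H23.FMMain
import Vale.Agent.H23.CKMain
import Vale.Agent.H23.MLineRC

/-!
# Tingley's problem: four classes of spaces, stated with the Mazur-Ulam property

`MazurUlamProperty X` is the property of the problem file: for every real Banach space `Y`,
every surjective isometry from the unit sphere of `X` onto the unit sphere of `Y` is the
restriction of a surjective real-linear isometry of `X` onto `Y`.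

Let `X` be a real normed space and `K` a compact Hausdorff space; let `E` be a normed space over
`𝕜 = ℝ` or `ℂ`, regarded as a real normed space, and `Z` a real normed space.

(1) If `X` has a linear projection `P`, neither `0` nor the identity, with
`‖x‖ = ‖P x‖ + ‖x - P x‖` for all `x` or `‖x‖ = max ‖P x‖ ‖x - P x‖` for all `x`, then `X` has
the Mazur-Ulam property.

(2) If there is an algebra homomorphism `M` from `C(K, ℝ)` into the linear endomorphisms of `X`
with `‖M φ x + M ψ y‖ ≤ max ‖x‖ ‖y‖` whenever `φ, ψ ≥ 0` and `φ + ψ ≤ 1`, and some `M φ` is not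
a scalar multiple of the identity, then `X` has the Mazur-Ulam property.

(3) If `K` has at least two points and `X` is nonzero, then `C(K, X)` (supremum norm) has the
Mazur-Ulam property.

(4) If `E` consists of `𝕜`-valued functions on an index set through a `𝕜`-linear coordinate
map, its norm is `‖x‖ = sup_{F ∈ S} (∑_{i ∈ F} ‖x i‖ ^ p) ^ (1 / p)` for some `p ≥ 1` and a
family `S` of finite sets that contains `{i₀}` as its only member containing `i₀`, and `E`
contains the unit vector at `i₀`, then every surjective isometry from the unit sphere of `E`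
onto the unit sphere of `Z` is the restriction of a surjective real-linear isometry.
-/

namespace Vale.Agent.Results.P084.A00_MazurUlamPropertyForm

open Vale.Agent.H23

theorem result.{u1, u2, u3, u4} {K : Type u1} {X : Type u2} {ι : Type u4}
    {𝕜 : Type} {E : Type u2} {Z : Type u3}
    [TopologicalSpace K] [CompactSpace K] [T2Space K]
    [NormedAddCommGroup X] [NormedSpace ℝ X] [DecidableEq ι]
    [RCLike 𝕜] [NormedAddCommGroup E] [NormedSpace ℝ E] [NormedSpace 𝕜 E] [IsScalarTower ℝ 𝕜 E]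
    [NormedAddCommGroup Z] [NormedSpace ℝ Z] :
    (∀ P : X →ₗ[ℝ] X, (∀ x, P (P x) = P x) → (∃ x, P x ≠ 0) → (∃ x, P x ≠ x) →
      ((∀ x, ‖x‖ = ‖P x‖ + ‖x - P x‖) ∨ (∀ x, ‖x‖ = max ‖P x‖ ‖x - P x‖)) →
      MazurUlamProperty.{u2, u3} X) ∧
    (∀ M : C(K, ℝ) →ₐ[ℝ] Module.End ℝ X,
      (∀ (φ ψ : C(K, ℝ)) (x y : X), (∀ t, 0 ≤ φ t) → (∀ t, 0 ≤ ψ t) →
        (∀ t, φ t + ψ t ≤ 1) → ‖M φ x + M ψ y‖ ≤ max ‖x‖ ‖y‖) →
      (∃ φ : C(K, ℝ), ∀ c : ℝ, ∃ x : X, M φ x ≠ c • x) →
      MazurUlamProperty.{u2, u3} X) ∧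
    ((∃ t₁ t₂ : K, t₁ ≠ t₂) → (∃ x : X, x ≠ 0) →
      MazurUlamProperty.{max u1 u2, u3} C(K, X)) ∧
    (∀ (S : Set (Finset ι)) (i₀ : ι), {i₀} ∈ S → (∀ F ∈ S, i₀ ∈ F → F = {i₀}) →
      ∀ (p : ℝ), 1 ≤ p → ∀ coord : E →ₗ[𝕜] (ι → 𝕜),
      (∀ x : E,
        IsLUB {r : ℝ | ∃ F ∈ S, r = (∑ i ∈ F, ‖coord x i‖ ^ p) ^ (1 / p)} ‖x‖) →
      (∃ e : E, ∀ i, coord e i = if i = i₀ then 1 else 0) →
      ∀ f : Metric.sphere (0 : E) 1 → Metric.sphere (0 : Z) 1,
        Isometry f → Function.Surjective f →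
        ∃ T : E ≃ₗᵢ[ℝ] Z, ∀ x : Metric.sphere (0 : E) 1, T (x : E) = (f x : Z)) := by
  refine ⟨?_, ?_, ?_, ?_⟩
  · intro P hP h0 h1 hLM Y _ _ _ f hf hsurj
    exact exists_linearIsometryEquiv_of_lm_projection P hP hLM h0 h1 f hf hsurj
  · intro M hmp hnt Y _ _ _ f hf hsurj
    exact exists_linearIsometryEquiv_funMod M hmp hnt f hf hsurj
  · rintro ⟨t₁, t₂, hne⟩ ⟨x, hx⟩ Y _ _ _ f hf hsurj
    have hK : Nontrivial K := ⟨⟨t₁, t₂, hne⟩⟩
    have hX : Nontrivial X := ⟨⟨x, 0, hx⟩⟩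
    exact exists_linearIsometryEquiv_continuousMap f hf hsurj
  · intro S i₀ hS0 hS1 p hp coord hnorm he f hf hsurj
    obtain ⟨e, he⟩ := he
    exact exists_linearIsometryEquiv_of_combinatorial_norm_rc_all S i₀ hS0 hS1 p hp coord hnorm
      e he f hf hsurj

end Vale.Agent.Results.P084.A00_MazurUlamPropertyForm
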