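import Vale.Agent.H23.CKMain
import Vale.Agent.H23.BCMain

/-!
# Tingley's problem for spaces and modules of continuous vector-valued functions

Let `X` be a real normed space and `Y` a real Banach space.

(i) Let `K` be a compact Hausdorff space with at least two points and let `X` be nonzero. Every
surjective isometry from the unit sphere of `C(K, X)` (continuous functions `K → X` with the
supremum norm) onto the unit sphere of `Y` is the restriction of a surjective real-linear
isometry.

(ii) Let `L` be any topological space and let `E` be a linear subspace of the space of bounded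
continuous functions `L → X` (supremum norm) which is closed under pointwise multiplication by
bounded continuous real functions. Assume there are two points of `L`, separated by a continuous
real function, at each of which some member of `E` does not vanish. Every surjective isometry
from the unit sphere of `E` onto the unit sphere of `Y` is the restriction of a surjective
real-linear isometry.

Examples for (ii): all bounded continuous functions `L → X`; the continuous functions vanishing
at infinity on a locally compact Hausdorff space; the functions vanishing on a given set; spaces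
of bounded continuous sections `u t ∈ X t` of a family of subspaces `X t` of `X`. Nothing is
assumed about `X`.
-/

namespace Vale.Agent.Results.P084.A_ContinuousFunctionSpaces

open Vale.Agent.H23

theorem result {K L X Y : Type*} [TopologicalSpace K] [CompactSpace K] [T2Space K]
    [TopologicalSpace L] [NormedAddCommGroup X] [NormedSpace ℝ X]
    [NormedAddCommGroup Y] [NormedSpace ℝ Y] [CompleteSpace Y] :
    ((∃ t₁ t₂ : K, t₁ ≠ t₂) → (∃ x : X, x ≠ 0) →
      ∀ f : Metric.sphere (0 : C(K, X)) 1 → Metric.sphere (0 : Y) 1,
        Isometry f → Function.Surjective f →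
        ∃ T : C(K, X) ≃ₗᵢ[ℝ] Y,
          ∀ u : Metric.sphere (0 : C(K, X)) 1, T (u : C(K, X)) = (f u : Y)) ∧
    (∀ E : Submodule ℝ (BoundedContinuousFunction L X),
      (∀ (φ : BoundedContinuousFunction L ℝ) (u : BoundedContinuousFunction L X), u ∈ E →
        ∃ v ∈ E, ∀ s : L, v s = φ s • u s) →
      (∃ (h₀ : L → ℝ) (t₁ t₂ : L), Continuous h₀ ∧ h₀ t₁ ≠ h₀ t₂ ∧
        (∃ u ∈ E, u t₁ ≠ 0) ∧ ∃ u ∈ E, u t₂ ≠ 0) →
      ∀ f : Metric.sphere (0 : E) 1 → Metric.sphere (0 : Y) 1,
        Isometry f → Function.Surjective f →
        ∃ T : E ≃ₗᵢ[ℝ] Y, ∀ u : Metric.sphere (0 : E) 1, T (u : E) = (f u : Y)) := by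
  constructor
  · rintro ⟨t₁, t₂, hne⟩ ⟨x, hx⟩ f hf hsurj
    have hK : Nontrivial K := ⟨⟨t₁, t₂, hne⟩⟩
    have hX : Nontrivial X := ⟨⟨x, 0, hx⟩⟩
    exact exists_linearIsometryEquiv_continuousMap f hf hsurj
  · intro E hmod hsep f hf hsurj
    exact exists_linearIsometryEquiv_bcModule E hmod hsep f hf hsurj

end Vale.Agent.Results.P084.A_ContinuousFunctionSpaces
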