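import Vale.Agent.H23.MSummand
import Vale.Agent.H23.FMMain

/-!
# Tingley's problem for spaces with a nontrivial L-summand and for function modules

Let `X` be a real normed space and `Y` a real Banach space. Every surjective isometry from the
unit sphere of `X` onto the unit sphere of `Y` is the restriction of a surjective real-linear
isometry in each of the following two cases.

(i) `X` has a linear projection `P`, neither `0` nor the identity, such that
`‖x‖ = ‖P x‖ + ‖x - P x‖` for all `x` (an L-projection) or `‖x‖ = max ‖P x‖ ‖x - P x‖` for all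
`x` (an M-projection).

(ii) `X` is a nontrivial function module: for some compact Hausdorff space `K` there is an
algebra homomorphism `M` from `C(K, ℝ)` into the linear endomorphisms of `X` such that
`‖M φ x + M ψ y‖ ≤ max ‖x‖ ‖y‖` whenever `φ, ψ ≥ 0` and `φ + ψ ≤ 1`, and some `M φ` is not a
scalar multiple of the identity. Examples: a space with an M-projection (`K` has two points),
spaces of continuous vector-valued functions, and by the classical theory of the centralizer
every real Banach space whose centralizer does not consist of the multiples of the identity.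
-/

namespace Vale.Agent.Results.P084.A_FunctionModules

open Vale.Agent.H23

theorem result {K X Y : Type*} [TopologicalSpace K] [CompactSpace K] [T2Space K]
    [NormedAddCommGroup X] [NormedSpace ℝ X]
    [NormedAddCommGroup Y] [NormedSpace ℝ Y] [CompleteSpace Y] :
    (∀ P : X →ₗ[ℝ] X, (∀ x, P (P x) = P x) → (∃ x, P x ≠ 0) → (∃ x, P x ≠ x) →
      ((∀ x, ‖x‖ = ‖P x‖ + ‖x - P x‖) ∨ (∀ x, ‖x‖ = max ‖P x‖ ‖x - P x‖)) →
      ∀ f : Metric.sphere (0 : X) 1 → Metric.sphere (0 : Y) 1,
        Isometry f → Function.Surjective f →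
        ∃ T : X ≃ₗᵢ[ℝ] Y, ∀ x : Metric.sphere (0 : X) 1, T (x : X) = (f x : Y)) ∧
    (∀ M : C(K, ℝ) →ₐ[ℝ] Module.End ℝ X,
      (∀ (φ ψ : C(K, ℝ)) (x y : X), (∀ t, 0 ≤ φ t) → (∀ t, 0 ≤ ψ t) →
        (∀ t, φ t + ψ t ≤ 1) → ‖M φ x + M ψ y‖ ≤ max ‖x‖ ‖y‖) →
      (∃ φ : C(K, ℝ), ∀ c : ℝ, ∃ x : X, M φ x ≠ c • x) →
      ∀ f : Metric.sphere (0 : X) 1 → Metric.sphere (0 : Y) 1,
        Isometry f → Function.Surjective f →
        ∃ T : X ≃ₗᵢ[ℝ] Y, ∀ x : Metric.sphere (0 : X) 1, T (x : X) = (f x : Y)) := by
  constructor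
  · intro P hP h0 h1 hLM f hf hsurj
    exact exists_linearIsometryEquiv_of_lm_projection P hP hLM h0 h1 f hf hsurj
  · intro M hmp hnt f hf hsurj
    exact exists_linearIsometryEquiv_funMod M hmp hnt f hf hsurj

end Vale.Agent.Results.P084.A_FunctionModules
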