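import Vale.Agent.H23.MLineRC

/-!
# Tingley's problem for real or complex combinatorial sequence spaces with an isolated index

Let `𝕜` be `ℝ` or `ℂ`. Let `S` be a family of finite subsets of an index set, containing `{i₀}`
and such that `{i₀}` is its only member containing `i₀`, let `p ≥ 1`, and let `E` be a normed
space over `𝕜` of `𝕜`-valued functions on the index set (through a `𝕜`-linear coordinate map
`coord`) whose norm is `‖x‖ = sup_{F ∈ S} (∑_{i ∈ F} ‖x i‖ ^ p) ^ (1 / p)` and which contains the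
unit vector at `i₀`. Regard `E` as a real normed space. Then for every real normed space `Y`,
every surjective isometry from the unit sphere of `E` onto the unit sphere of `Y` is the
restriction of a surjective real-linear isometry. Schreier families of every order (with `i₀`
the first index) satisfy the hypothesis on `S`.
-/

namespace Vale.Agent.Results.P084.A_SchreierFamilies

open Vale.Agent.H23

theorem result {𝕜 E Y ι : Type*} [RCLike 𝕜]
    [NormedAddCommGroup E] [NormedSpace ℝ E] [NormedSpace 𝕜 E] [IsScalarTower ℝ 𝕜 E]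
    [NormedAddCommGroup Y] [NormedSpace ℝ Y] [DecidableEq ι]
    (S : Set (Finset ι)) (i₀ : ι) (hS0 : {i₀} ∈ S) (hS1 : ∀ F ∈ S, i₀ ∈ F → F = {i₀})
    (p : ℝ) (hp : 1 ≤ p) (coord : E →ₗ[𝕜] (ι → 𝕜))
    (hnorm : ∀ x : E,
      IsLUB {r : ℝ | ∃ F ∈ S, r = (∑ i ∈ F, ‖coord x i‖ ^ p) ^ (1 / p)} ‖x‖)
    (e : E) (he : ∀ i, coord e i = if i = i₀ then 1 else 0)
    (f : Metric.sphere (0 : E) 1 → Metric.sphere (0 : Y) 1)
    (hf : Isometry f) (hsurj : Function.Surjective f) :
    ∃ T : E ≃ₗᵢ[ℝ] Y, ∀ x : Metric.sphere (0 : E) 1, T (x : E) = (f x : Y) :=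
  exists_linearIsometryEquiv_of_combinatorial_norm_rc_all S i₀ hS0 hS1 p hp coord hnorm e he
    f hf hsurj

end Vale.Agent.Results.P084.A_SchreierFamilies
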