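import Vale.Agent.H23.MLine

/-!
# Tingley's problem for Schreier spaces and their `p`-convexifications

Let `p ≥ 1` and let `E` be a real normed space of real sequences indexed by the positive integers
(through a linear coordinate map `coord`) whose norm is the `p`-convexified Schreier norm
`‖x‖ = sup (∑_{i ∈ F} |x i| ^ p) ^ (1 / p)`, the supremum being over the finite sets `F` of
positive integers with `card F ≤ min F` (written `∀ i ∈ F, F.card ≤ i`), and which contains the
first unit vector. Then for every real normed space `Y`, every surjective isometry from the unit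
sphere of `E` onto the unit sphere of `Y` is the restriction of a surjective real-linear
isometry. The Schreier space (`p = 1`) and its `p`-convexifications are such spaces.
-/

namespace Vale.Agent.Results.P084.A_SchreierSpaces

open Vale.Agent.H23

theorem result {E Y : Type*}
    [NormedAddCommGroup E] [NormedSpace ℝ E] [NormedAddCommGroup Y] [NormedSpace ℝ Y]
    (p : ℝ) (hp : 1 ≤ p) (coord : E →ₗ[ℝ] (ℕ+ → ℝ))
    (hnorm : ∀ x : E,
      IsLUB {r : ℝ | ∃ F : Finset ℕ+, (∀ i ∈ F, F.card ≤ (i : ℕ)) ∧
        r = (∑ i ∈ F, |coord x i| ^ p) ^ (1 / p)} ‖x‖)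
    (e : E) (he : ∀ i, coord e i = if i = 1 then 1 else 0)
    (f : Metric.sphere (0 : E) 1 → Metric.sphere (0 : Y) 1)
    (hf : Isometry f) (hsurj : Function.Surjective f) :
    ∃ T : E ≃ₗᵢ[ℝ] Y, ∀ x : Metric.sphere (0 : E) 1, T (x : E) = (f x : Y) :=
  exists_linearIsometryEquiv_of_schreier_norm p hp coord hnorm e he f hf hsurj

end Vale.Agent.Results.P084.A_SchreierSpaces
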